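import Mathlib

/-!
Kernel computation of `π` (Machin, binary splitting) and the check of a table of rational
approximations. Everything here is written with the raw operations of `Nat`, so that the
kernel evaluates it fast.
-/

namespace Vale.Agent.P021.Eff

/-- merging of two neighbouring blocks `(D, N)`; `n2` = number of terms of the second block -/
def merge (m2 n2 : ℕ) (A B : ℕ × ℕ) : ℕ × ℕ :=
  Prod.rec (motive := fun _ => ℕ × ℕ) (fun D1 N1 =>
    Prod.rec (motive := fun _ => ℕ × ℕ) (fun D2 N2 =>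
      (Nat.mul D1 D2,
        Nat.add (Nat.mul (Nat.mul N1 D2) (Nat.pow m2 n2)) (Nat.mul N2 D1))) B) A

/-- binary splitting: pair `(D, N)` of the block of `2 ^ d` pairs of terms starting at the
odd number `b` -/
def node (m2 : ℕ) (d : ℕ) : ℕ → ℕ × ℕ :=
  Nat.rec (motive := fun _ => ℕ → ℕ × ℕ)
    (fun b => (Nat.mul b (Nat.add b 2), Nat.sub (Nat.mul m2 (Nat.add b 2)) b))
    (fun k ih b => merge m2 (Nat.pow 2 (Nat.succ k)) (ih b) (ih (Nat.add b (Nat.pow 2 (Nat.add k 2)))))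
    d

/-- `2 ^ 17 + 2 ^ 15 + 2 ^ 10` terms for `m = 5` -/
def ser5 : ℕ × ℕ :=
  merge 25 (Nat.pow 2 10)
    (merge 25 (Nat.pow 2 15) (node 25 16 1) (node 25 14 (Nat.add 1 (Nat.pow 2 18))))
    (node 25 9 (Nat.add (Nat.add 1 (Nat.pow 2 18)) (Nat.pow 2 16)))

/-- `2 ^ 15 + 2 ^ 14` terms for `m = 239` -/
def ser239 : ℕ × ℕ :=
  merge 57121 (Nat.pow 2 14) (node 57121 14 1) (node 57121 13 (Nat.add 1 (Nat.pow 2 16)))

/-- number of terms, `m = 5` -/
def n5 : ℕ := 164864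

/-- number of terms, `m = 239` -/
def n239 : ℕ := 49152

/-- the scale -/
def scl : ℕ := Nat.pow 2 764400

/-- `c N P / (D m2^n)` -/
def piG (c D N P m2 n : ℕ) : ℕ :=
  Nat.div (Nat.mul (Nat.mul c N) P) (Nat.mul D (Nat.pow m2 n))

theorem piG_eq (c D N P m2 n : ℕ) : piG c D N P m2 n = c * N * P / (D * m2 ^ n) := rfl

/-- `16 arctan (1/5)` times the scale -/
def piX : ℕ := piG 80 ser5.1 ser5.2 scl 25 n5

/-- `4 arctan (1/239)` times the scale -/
def piY : ℕ := piG 956 ser239.1 ser239.2 scl 57121 n239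

/-- `π` times the scale -/
def piL : ℕ := Nat.sub piX piY

/-- the elementary check of one row -/
def chk1 (L P lo Q hi A : ℕ) : Bool :=
  and (Nat.beq (Nat.gcd Q A) 1) (and (Nat.ble (Nat.succ hi) Q)
    (and (Nat.ble (Nat.succ (Nat.mul 2 Q)) (Nat.pow lo 6))
      (Nat.ble (Nat.mul (Nat.mul 2 hi) (Nat.add (Nat.add (Nat.sub (Nat.mul Q L) (Nat.mul A P))
        (Nat.sub (Nat.mul A P) (Nat.mul Q L))) (Nat.mul 2 Q))) P)))

/-- the check of a table with rows `(Q, hi)` -/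
def chkT (L P : ℕ) (T : List (ℕ × ℕ)) : ℕ → ℕ → Bool :=
  List.rec (motive := fun _ => ℕ → ℕ → Bool)
    (fun lo H => Nat.ble (Nat.succ H) lo)
    (fun r _ ih lo H =>
      and (chk1 L P lo r.1 r.2 (Nat.div (Nat.add (Nat.mul (Nat.mul 2 r.1) L) P) (Nat.mul 2 P)))
        (ih (Nat.succ r.2) H)) T

/-- the side conditions -/
def chkS : Bool :=
  and (Nat.ble piY piX)
    (and (Nat.ble (Nat.mul 64 scl) (Nat.pow 5 (Nat.succ (Nat.mul 2 n5))))
      (Nat.ble (Nat.mul 16 scl) (Nat.pow 239 (Nat.succ (Nat.mul 2 n239)))))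

end Vale.Agent.P021.Eff
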