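import Mathlib
import Vale.Agent.P021.Eff.SmallDefs

/-!
Second version of the kernel computation: more digits, any exponent.
-/

namespace Vale.Agent.P021.Eff

/-- `2 ^ 18 + 2 ^ 17 + 2 ^ 16` terms for `m = 5` -/
def tser5 : ℕ × ℕ :=
  merge 25 (Nat.pow 2 16)
    (merge 25 (Nat.pow 2 17) (node 25 17 1) (node 25 16 (Nat.add 1 (Nat.pow 2 19))))
    (node 25 15 (Nat.add (Nat.add 1 (Nat.pow 2 19)) (Nat.pow 2 18)))

/-- `2 ^ 17` terms for `m = 239` -/
def tser239 : ℕ × ℕ := node 57121 16 1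

/-- number of terms, `m = 5` -/
def tn5 : ℕ := 458752

/-- number of terms, `m = 239` -/
def tn239 : ℕ := 131072

/-- the scale -/
def tscl : ℕ := Nat.pow 2 1993400

/-- `16 arctan (1/5)` times the scale -/
def tpiX : ℕ := piG 80 tser5.1 tser5.2 tscl 25 tn5

/-- `4 arctan (1/239)` times the scale -/
def tpiY : ℕ := piG 956 tser239.1 tser239.2 tscl 57121 tn239

/-- `π` times the scale -/
def tpiL : ℕ := Nat.sub tpiX tpiY

/-- the elementary check of one row, exponent `e` -/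
def chk1e (e L P lo Q hi A : ℕ) : Bool :=
  and (Nat.beq (Nat.gcd Q A) 1) (and (Nat.ble (Nat.succ hi) Q)
    (and (Nat.ble (Nat.succ (Nat.mul 2 Q)) (Nat.pow lo e))
      (Nat.ble (Nat.mul (Nat.mul 2 hi) (Nat.add (Nat.add (Nat.sub (Nat.mul Q L) (Nat.mul A P))
        (Nat.sub (Nat.mul A P) (Nat.mul Q L))) (Nat.mul 2 Q))) P)))

/-- the check of a table with rows `(Q, hi)`, exponent `e` -/
def chkTe (e L P : ℕ) (T : List (ℕ × ℕ)) : ℕ → ℕ → Bool :=
  List.rec (motive := fun _ => ℕ → ℕ → Bool)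
    (fun lo H => Nat.ble (Nat.succ H) lo)
    (fun r _ ih lo H =>
      and (chk1e e L P lo r.1 r.2 (Nat.div (Nat.add (Nat.mul (Nat.mul 2 r.1) L) P) (Nat.mul 2 P)))
        (ih (Nat.succ r.2) H)) T

/-- the side conditions -/
def tchkS : Bool :=
  and (Nat.ble tpiY tpiX)
    (and (Nat.ble (Nat.mul 64 tscl) (Nat.pow 5 (Nat.succ (Nat.mul 2 tn5))))
      (Nat.ble (Nat.mul 16 tscl) (Nat.pow 239 (Nat.succ (Nat.mul 2 tn239)))))

end Vale.Agent.P021.Eff
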