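import Mathlib
import Vale.Agent.P021.Eff.B2Defs
import Vale.Agent.P021.Eff.B2Data

/-!
The kernel computation, second version: `π` to 600000 digits and the check of the table.
-/

namespace Vale.Agent.P021.Eff

theorem tchkS_true : tchkS = true := by decide +kernel

theorem tchk_true : chkTe 5 tpiL tscl ttbl 2 (Nat.pow 10 300000) = true := by decide +kernel

end Vale.Agent.P021.Eff
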