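import Mathlib
import Vale.Agent.P021.Eff.SmallDefs

/-!
Soundness of the kernel computation in `SmallDefs`.
-/

namespace Vale.Agent.P021.Eff

open Finset Real

/-- the partial sum `∑_{k<n} (-1)^k / ((b + 2k) m2^(k+1))` -/
noncomputable def V (m2 : ℝ) (b n : ℕ) : ℝ :=
  ∑ k ∈ Finset.range n, (-1 : ℝ) ^ k / (((b : ℝ) + 2 * k) * m2 ^ (k + 1))

/-- the invariant of a block -/
def Inv (m2 : ℕ) (b n : ℕ) (A : ℕ × ℕ) : Prop :=
  0 < A.1 ∧ (A.2 : ℝ) = A.1 * (m2 : ℝ) ^ n * V m2 b n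

theorem V_add (m2 : ℝ) (b n1 n2 : ℕ) (he : Even n1) :
    V m2 b (n1 + n2) = V m2 b n1 + (m2 ^ n1)⁻¹ * V m2 (b + 2 * n1) n2 := by
  unfold V
  rw [Finset.sum_range_add, Finset.mul_sum]
  congr 1
  apply Finset.sum_congr rfl
  intro k _
  have h1 : (-1 : ℝ) ^ (n1 + k) = (-1) ^ k := by
    rw [pow_add, he.neg_one_pow, one_mul]
  rw [h1]
  push_cast
  have h2 : (b : ℝ) + 2 * (n1 + k) = b + 2 * n1 + 2 * k := by ring
  have h3 : m2 ^ (n1 + k + 1) = m2 ^ n1 * m2 ^ (k + 1) := by ring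
  rw [h2, h3, div_eq_mul_inv, div_eq_mul_inv, mul_inv, mul_inv, mul_inv]
  ring

theorem merge_eq (m2 n2 : ℕ) (A B : ℕ × ℕ) :
    merge m2 n2 A B = (A.1 * B.1, A.2 * B.1 * m2 ^ n2 + B.2 * A.1) := rfl

theorem Inv_merge {m2 b n1 n2 b' : ℕ} (hm : 0 < m2) (he : Even n1) {A B : ℕ × ℕ}
    (hb : b' = b + 2 * n1)
    (hA : Inv m2 b n1 A) (hB : Inv m2 b' n2 B) :
    Inv m2 b (n1 + n2) (merge m2 n2 A B) := by
  subst hb
  obtain ⟨hA1, hA2⟩ := hA
  obtain ⟨hB1, hB2⟩ := hB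
  rw [merge_eq]
  refine ⟨Nat.mul_pos hA1 hB1, ?_⟩
  have hm' : (m2 : ℝ) ≠ 0 := by positivity
  have hp : (m2 : ℝ) ^ n1 ≠ 0 := pow_ne_zero _ hm'
  push_cast
  rw [hA2, hB2, V_add _ _ _ _ he, pow_add]
  field_simp

theorem Inv_leaf {m2 b : ℕ} (hm : 0 < m2) (hb : 0 < b) :
    Inv m2 b 2 (b * (b + 2), m2 * (b + 2) - b) := by
  refine ⟨by positivity, ?_⟩
  have hm' : (m2 : ℝ) ≠ 0 := by positivity
  have hb' : (b : ℝ) ≠ 0 := by positivity
  have hb2 : (b : ℝ) + 2 ≠ 0 := by positivity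
  have hle : b ≤ m2 * (b + 2) := by nlinarith
  simp only [V, Finset.sum_range_succ, Finset.sum_range_zero]
  push_cast [Nat.cast_sub hle]
  simp only [pow_zero, pow_one, mul_zero, add_zero, zero_add, mul_one]
  field_simp
  ring

theorem node_zero (m2 b : ℕ) : node m2 0 b = (b * (b + 2), m2 * (b + 2) - b) := rfl

theorem node_succ (m2 k b : ℕ) :
    node m2 (k + 1) b = merge m2 (2 ^ (k + 1)) (node m2 k b) (node m2 k (b + 2 ^ (k + 2))) := rfl

theorem Inv_node {m2 : ℕ} (hm : 0 < m2) : ∀ (d b : ℕ), 0 < b →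
    Inv m2 b (2 ^ (d + 1)) (node m2 d b) := by
  intro d
  induction d with
  | zero =>
    intro b hb
    rw [node_zero]
    exact Inv_leaf hm hb
  | succ k ih =>
    intro b hb
    rw [node_succ]
    have h := Inv_merge (n1 := 2 ^ (k + 1)) (n2 := 2 ^ (k + 1)) hm
      (by rw [pow_succ]; exact Nat.even_mul.mpr (Or.inr even_two))
      (b' := b + 2 ^ (k + 2)) (by ring) (ih b hb) (ih _ (by positivity))
    have h2 : 2 ^ (k + 1) + 2 ^ (k + 1) = 2 ^ (k + 1 + 1) := by ring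
    rw [h2] at h
    exact h

/-- truncated arctangent series -/
theorem arctan_trunc (m n : ℕ) (hm : 2 ≤ m) :
    |arctan ((m : ℝ)⁻¹) - m * V ((m : ℝ) ^ 2) 1 n| ≤ 2 * ((m : ℝ)⁻¹) ^ (2 * n + 1) := by
  have hm2 : (2 : ℝ) ≤ m := by exact_mod_cast hm
  have hm0 : (m : ℝ) ≠ 0 := by positivity
  set x : ℝ := (m : ℝ)⁻¹ with hx
  have hx0 : 0 < x := by positivity
  have hx1 : x ≤ 1 / 2 := by
    rw [hx, inv_eq_one_div]
    exact one_div_le_one_div_of_le (by norm_num) hm2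
  have hxx : x ^ 2 ≤ 1 / 4 := by nlinarith
  have hs := Real.hasSum_arctan (x := x) (by rw [Real.norm_of_nonneg hx0.le]; linarith)
  have hs2 := (hasSum_nat_add_iff' n).mpr hs
  have hV : ∑ i ∈ Finset.range n, (-1 : ℝ) ^ i * x ^ (2 * i + 1) / ((2 * i + 1 : ℕ) : ℝ)
      = m * V ((m : ℝ) ^ 2) 1 n := by
    unfold V
    rw [Finset.mul_sum]
    apply Finset.sum_congr rfl
    intro k _
    have h1 : x ^ (2 * k + 1) = m * (((m : ℝ) ^ 2) ^ (k + 1))⁻¹ := by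
      rw [hx, inv_pow, ← pow_mul]
      have : 2 * (k + 1) = (2 * k + 1) + 1 := by ring
      rw [this, pow_succ (m : ℝ) (2 * k + 1), mul_inv]
      field_simp
    rw [h1]
    push_cast
    have h2 : (2 : ℝ) * k + 1 ≠ 0 := by positivity
    have h3 : (1 : ℝ) + 2 * k ≠ 0 := by positivity
    have h4 : ((m : ℝ) ^ 2) ^ (k + 1) ≠ 0 := by positivity
    field_simp
    ring
  rw [hV] at hs2
  have hg : HasSum (fun k : ℕ => x ^ (2 * n + 1) * (x ^ 2) ^ k) (x ^ (2 * n + 1) * (1 - x ^ 2)⁻¹) :=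
    (hasSum_geometric_of_lt_one (by positivity) (by linarith)).mul_left _
  have hb : ‖∑' i : ℕ, (-1 : ℝ) ^ (i + n) * x ^ (2 * (i + n) + 1) / ((2 * (i + n) + 1 : ℕ) : ℝ)‖
      ≤ x ^ (2 * n + 1) * (1 - x ^ 2)⁻¹ := by
    refine tsum_of_norm_bounded hg ?_
    intro k
    rw [norm_div, norm_mul, norm_pow, norm_neg, norm_one, one_pow, one_mul, norm_pow,
      Real.norm_of_nonneg hx0.le, Real.norm_of_nonneg (Nat.cast_nonneg _)]
    have h1 : x ^ (2 * (k + n) + 1) = x ^ (2 * n + 1) * (x ^ 2) ^ k := by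
      rw [← pow_mul, ← pow_add]; congr 1; ring
    rw [h1]
    apply div_le_self (by positivity)
    push_cast
    have : (0 : ℝ) ≤ 2 * ((k : ℝ) + n) := by positivity
    linarith
  rw [hs2.tsum_eq] at hb
  rw [Real.norm_eq_abs] at hb
  refine hb.trans ?_
  rw [mul_comm (2 : ℝ)]
  apply mul_le_mul_of_nonneg_left _ (by positivity)
  rw [inv_eq_one_div, div_le_iff₀ (by linarith)]
  linarith

/-- one quotient: `|c arctan (1/m) P - ⌊c m N P / (D m2^n)⌋|` -/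
theorem quot_bound {m m2 n c cm P : ℕ} (hm : 2 ≤ m) (hm2 : m2 = m ^ 2) (hc : cm = c * m)
    (A : ℕ × ℕ) (hA : Inv m2 1 n A) (hP : 0 < P)
    (hsmall : 4 * c * P ≤ m ^ (2 * n + 1)) :
    -(1 / 2 : ℝ) ≤ c * arctan ((m : ℝ)⁻¹) * P - ((cm * A.2 * P / (A.1 * m2 ^ n) : ℕ) : ℝ) ∧
    c * arctan ((m : ℝ)⁻¹) * P - ((cm * A.2 * P / (A.1 * m2 ^ n) : ℕ) : ℝ) < 3 / 2 := by
  obtain ⟨hA1, hA2⟩ := hA
  have hm0 : (0 : ℝ) < m := by positivity
  have hm2' : (m2 : ℝ) = (m : ℝ) ^ 2 := by rw [hm2]; push_cast; ring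
  have hden : 0 < A.1 * m2 ^ n := by
    have : 0 < m2 := by rw [hm2]; positivity
    positivity
  have hdenR : (0 : ℝ) < ((A.1 * m2 ^ n : ℕ) : ℝ) := by exact_mod_cast hden
  set q : ℕ := cm * A.2 * P / (A.1 * m2 ^ n) with hq
  have e1 : ((cm * A.2 * P : ℕ) : ℝ) / ((A.1 * m2 ^ n : ℕ) : ℝ)
      = c * (m * V ((m : ℝ) ^ 2) 1 n) * P := by
    rw [div_eq_iff hdenR.ne', hc]
    push_cast
    rw [hA2, hm2']
    ring
  have l1 : (q : ℝ) ≤ c * (m * V ((m : ℝ) ^ 2) 1 n) * P := by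
    rw [← e1]
    exact Nat.cast_div_le
  have l2 : c * (m * V ((m : ℝ) ^ 2) 1 n) * P < (q : ℝ) + 1 := by
    rw [← e1, div_lt_iff₀ hdenR]
    have := Nat.lt_mul_of_div_lt (Nat.lt_succ_self q) hden
    exact_mod_cast this
  have hb := arctan_trunc m n hm
  have hsR : (4 : ℝ) * c * P ≤ (m : ℝ) ^ (2 * n + 1) := by exact_mod_cast hsmall
  have hb2 : |c * arctan ((m : ℝ)⁻¹) * P - c * (m * V ((m : ℝ) ^ 2) 1 n) * P| ≤ 1 / 2 := by
    have : c * arctan ((m : ℝ)⁻¹) * P - c * (m * V ((m : ℝ) ^ 2) 1 n) * P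
        = (c * P) * (arctan ((m : ℝ)⁻¹) - m * V ((m : ℝ) ^ 2) 1 n) := by ring
    rw [this, abs_mul, abs_of_nonneg (by positivity : (0 : ℝ) ≤ (c : ℝ) * P)]
    calc (c : ℝ) * P * |arctan ((m : ℝ)⁻¹) - m * V ((m : ℝ) ^ 2) 1 n|
        ≤ (c : ℝ) * P * (2 * ((m : ℝ)⁻¹) ^ (2 * n + 1)) :=
          mul_le_mul_of_nonneg_left hb (by positivity)
      _ = (4 * c * P) / (m : ℝ) ^ (2 * n + 1) * (1 / 2) := by
          rw [inv_pow]; field_simp; ring
      _ ≤ 1 * (1 / 2) := by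
          apply mul_le_mul_of_nonneg_right _ (by norm_num)
          rw [div_le_one (by positivity)]
          exact hsR
      _ = 1 / 2 := by norm_num
  rw [abs_le] at hb2
  constructor <;> linarith [hb2.1, hb2.2]

/-- soundness of one row -/
theorem step {L P : ℕ} (hP : 0 < P) (hL : |Real.pi * P - L| < 2) {lo Q A hi : ℕ}
    (hlo : 1 ≤ lo) (hg : Nat.gcd Q A = 1) (h1 : hi < Q) (h2 : 2 * Q < lo ^ 6)
    (h3 : 2 * hi * ((Q * L - A * P) + (A * P - Q * L) + 2 * Q) ≤ P)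
    {p q : ℤ} (hq1 : (lo : ℤ) ≤ q) (hq2 : q ≤ hi) :
    1 / (q : ℝ) ^ 7 < |Real.pi - (p : ℝ) / (q : ℝ)| := by
  have hq0 : 0 < q := by
    have : (1 : ℤ) ≤ lo := by exact_mod_cast hlo
    linarith
  have hqR : (0 : ℝ) < q := by exact_mod_cast hq0
  have hQ0 : 0 < Q := by omega
  have hQR : (0 : ℝ) < Q := by exact_mod_cast hQ0
  have hPR : (0 : ℝ) < P := by exact_mod_cast hP
  -- the approximation
  have habs : |(Q : ℝ) * L - A * P| = (((Q * L - A * P) + (A * P - Q * L) : ℕ) : ℝ) := by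
    rcases le_total (A * P) (Q * L) with h | h
    · have hz : A * P - Q * L = 0 := Nat.sub_eq_zero_of_le h
      rw [hz, add_zero, Nat.cast_sub h]
      push_cast
      apply abs_of_nonneg
      have : ((A * P : ℕ) : ℝ) ≤ ((Q * L : ℕ) : ℝ) := by exact_mod_cast h
      push_cast at this
      linarith
    · have hz : Q * L - A * P = 0 := Nat.sub_eq_zero_of_le h
      rw [hz, zero_add, Nat.cast_sub h]
      push_cast
      rw [abs_sub_comm]
      apply abs_of_nonneg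
      have : ((Q * L : ℕ) : ℝ) ≤ ((A * P : ℕ) : ℝ) := by exact_mod_cast h
      push_cast at this
      linarith
  have he : |(Q : ℝ) * Real.pi - A| * P ≤
      (((Q * L - A * P) + (A * P - Q * L) + 2 * Q : ℕ) : ℝ) := by
    have : (Q : ℝ) * Real.pi * P - A * P = Q * (Real.pi * P - L) + (Q * L - A * P) := by ring
    have h4 : |(Q : ℝ) * Real.pi - A| * P = |(Q : ℝ) * Real.pi * P - A * P| := by
      rw [← sub_mul, abs_mul, abs_of_pos hPR]
    rw [h4, this]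
    refine (abs_add_le _ _).trans ?_
    rw [habs, abs_mul, abs_of_pos hQR]
    push_cast
    nlinarith [hL.le, abs_nonneg (Real.pi * P - L)]
  have he2 : 2 * (hi : ℝ) * |(Q : ℝ) * Real.pi - A| ≤ 1 := by
    have h3R : 2 * (hi : ℝ) * (((Q * L - A * P) + (A * P - Q * L) + 2 * Q : ℕ) : ℝ) ≤ P := by
      exact_mod_cast h3
    have h5 : 2 * (hi : ℝ) * |(Q : ℝ) * Real.pi - A| * P ≤ 1 * P := by
      calc 2 * (hi : ℝ) * |(Q : ℝ) * Real.pi - A| * P
          = 2 * (hi : ℝ) * (|(Q : ℝ) * Real.pi - A| * P) := by ring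
        _ ≤ 2 * (hi : ℝ) * (((Q * L - A * P) + (A * P - Q * L) + 2 * Q : ℕ) : ℝ) :=
            mul_le_mul_of_nonneg_left he (by positivity)
        _ ≤ 1 * P := by rw [one_mul]; exact h3R
    exact le_of_mul_le_mul_right h5 hPR
  -- the two fractions are different
  have hne : p * Q - q * A ≠ 0 := by
    intro h
    have h6 : (Q : ℤ) ∣ q * A := ⟨p, by linarith⟩
    have h7 : IsCoprime (Q : ℤ) (A : ℤ) := by
      rw [Int.isCoprime_iff_gcd_eq_one]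
      exact_mod_cast hg
    have h8 : (Q : ℤ) ∣ q := h7.dvd_of_dvd_mul_right h6
    have h9 : (Q : ℤ) ≤ q := Int.le_of_dvd hq0 h8
    have h10 : (hi : ℤ) < Q := by exact_mod_cast h1
    linarith
  have hge : (1 : ℝ) ≤ |(p : ℝ) * Q - q * A| := by
    have := Int.one_le_abs hne
    have h11 : ((1 : ℤ) : ℝ) ≤ ((|p * Q - q * A| : ℤ) : ℝ) := by exact_mod_cast this
    push_cast at h11
    exact h11
  -- the distance
  have hqhi : (q : ℝ) ≤ hi := by exact_mod_cast hq2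
  have hqe : 2 * ((q : ℝ) * |(Q : ℝ) * Real.pi - A|) ≤ 1 := by
    have : (q : ℝ) * |(Q : ℝ) * Real.pi - A| ≤ hi * |(Q : ℝ) * Real.pi - A| :=
      mul_le_mul_of_nonneg_right hqhi (abs_nonneg _)
    linarith
  have hd : (1 : ℝ) / 2 ≤ |Real.pi - (p : ℝ) / q| * (Q * q) := by
    have h12 : |Real.pi - (p : ℝ) / q| * (Q * q) = |(Q : ℝ) * Real.pi * q - p * Q| := by
      rw [← abs_of_pos (mul_pos hQR hqR), ← abs_mul]
      congr 1
      field_simp
    rw [h12]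
    have h13 : (p : ℝ) * Q - q * A = q * (Q * Real.pi - A) - (Q * Real.pi * q - p * Q) := by ring
    have h14 := abs_sub (q * ((Q : ℝ) * Real.pi - A)) (Q * Real.pi * q - p * Q)
    rw [← h13, abs_mul, abs_of_pos hqR] at h14
    linarith
  have hQ6 : (2 : ℝ) * Q < (q : ℝ) ^ 6 := by
    have h15 : (2 : ℝ) * Q < (lo : ℝ) ^ 6 := by exact_mod_cast h2
    have h16 : (lo : ℝ) ≤ q := by exact_mod_cast hq1
    exact h15.trans_le (pow_le_pow_left₀ (by positivity) h16 6)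
  rw [div_lt_iff₀ (by positivity)]
  have h17 : (q : ℝ) ^ 7 = q ^ 6 * q := by ring
  rw [h17]
  have hpos : 0 < |Real.pi - (p : ℝ) / q| := by
    by_contra hcon
    have h0 : |Real.pi - (p : ℝ) / q| = 0 := le_antisymm (not_lt.mp hcon) (abs_nonneg _)
    rw [h0] at hd
    linarith
  have h18 : |Real.pi - (p : ℝ) / q| * (2 * Q * q) < |Real.pi - (p : ℝ) / q| * (q ^ 6 * q) := by
    apply mul_lt_mul_of_pos_left _ hpos
    exact mul_lt_mul_of_pos_right hQ6 hqR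
  linarith

theorem chkT_nil (L P lo H : ℕ) : chkT L P [] lo H = Nat.ble (Nat.succ H) lo := rfl

theorem chkT_cons (L P : ℕ) (r : ℕ × ℕ) (T : List (ℕ × ℕ)) (lo H : ℕ) :
    chkT L P (r :: T) lo H =
      and (chk1 L P lo r.1 r.2 (Nat.div (Nat.add (Nat.mul (Nat.mul 2 r.1) L) P) (Nat.mul 2 P)))
        (chkT L P T (Nat.succ r.2) H) := rfl

theorem chk1_sound {L P lo Q hi A : ℕ} (h : chk1 L P lo Q hi A = true) :
    Nat.gcd Q A = 1 ∧ hi < Q ∧ 2 * Q < lo ^ 6 ∧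
      2 * hi * ((Q * L - A * P) + (A * P - Q * L) + 2 * Q) ≤ P := by
  unfold chk1 at h
  rw [Bool.and_eq_true, Bool.and_eq_true, Bool.and_eq_true] at h
  obtain ⟨a, b, c, d⟩ := h
  exact ⟨Nat.eq_of_beq_eq_true a, Nat.le_of_ble_eq_true b, Nat.le_of_ble_eq_true c,
    Nat.le_of_ble_eq_true d⟩

theorem sound {L P : ℕ} (hP : 0 < P) (hL : |Real.pi * P - L| < 2) :
    ∀ (T : List (ℕ × ℕ)) (lo H : ℕ), 1 ≤ lo → chkT L P T lo H = true →
    ∀ p q : ℤ, (lo : ℤ) ≤ q → q ≤ H → 1 / (q : ℝ) ^ 7 < |Real.pi - (p : ℝ) / (q : ℝ)| := by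
  intro T
  induction T with
  | nil =>
    intro lo H _ hc p q h1 h2
    rw [chkT_nil] at hc
    have h3 : H + 1 ≤ lo := Nat.le_of_ble_eq_true hc
    have h4 : (H : ℤ) + 1 ≤ lo := by exact_mod_cast h3
    linarith
  | cons r T ih =>
    intro lo H hlo hc p q h1 h2
    rw [chkT_cons, Bool.and_eq_true] at hc
    obtain ⟨c1, c2⟩ := hc
    obtain ⟨g, a, b, c⟩ := chk1_sound c1
    rcases le_or_gt q (r.2 : ℤ) with h | h
    · exact step hP hL hlo g a b c h1 h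
    · exact ih (Nat.succ r.2) H (Nat.succ_le_succ (Nat.zero_le _)) c2 p q (by push_cast; linarith) h2

end Vale.Agent.P021.Eff
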