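import Mathlib
import Vale.Agent.P021.Eff.SmallLem
import Vale.Agent.P021.Eff.B2Defs

/-!
Soundness of the second version (any exponent).
-/

namespace Vale.Agent.P021.Eff

open Finset Real

/-- soundness of one row -/
theorem stepe {e L P : ℕ} (hP : 0 < P) (hL : |Real.pi * P - L| < 2) {lo Q A hi : ℕ}
    (hlo : 1 ≤ lo) (hg : Nat.gcd Q A = 1) (h1 : hi < Q) (h2 : 2 * Q < lo ^ e)
    (h3 : 2 * hi * ((Q * L - A * P) + (A * P - Q * L) + 2 * Q) ≤ P)
    {p q : ℤ} (hq1 : (lo : ℤ) ≤ q) (hq2 : q ≤ hi) :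
    1 / (q : ℝ) ^ (e + 1) < |Real.pi - (p : ℝ) / (q : ℝ)| := by
  have hq0 : 0 < q := by
    have : (1 : ℤ) ≤ lo := by exact_mod_cast hlo
    linarith
  have hqR : (0 : ℝ) < q := by exact_mod_cast hq0
  have hQ0 : 0 < Q := by omega
  have hQR : (0 : ℝ) < Q := by exact_mod_cast hQ0
  have hPR : (0 : ℝ) < P := by exact_mod_cast hP
  -- the approximation
  have habs : |(Q : ℝ) * L - A * P| = (((Q * L - A * P) + (A * P - Q * L) : ℕ) : ℝ) := by
    rcases le_total (A * P) (Q * L) with h | h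
    · have hz : A * P - Q * L = 0 := Nat.sub_eq_zero_of_le h
      rw [hz, add_zero, Nat.cast_sub h]
      push_cast
      apply abs_of_nonneg
      have : ((A * P : ℕ) : ℝ) ≤ ((Q * L : ℕ) : ℝ) := by exact_mod_cast h
      push_cast at this
      linarith
    · have hz : Q * L - A * P = 0 := Nat.sub_eq_zero_of_le h
      rw [hz, zero_add, Nat.cast_sub h]
      push_cast
      rw [abs_sub_comm]
      apply abs_of_nonneg
      have : ((Q * L : ℕ) : ℝ) ≤ ((A * P : ℕ) : ℝ) := by exact_mod_cast h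
      push_cast at this
      linarith
  have hea : |(Q : ℝ) * Real.pi - A| * P ≤
      (((Q * L - A * P) + (A * P - Q * L) + 2 * Q : ℕ) : ℝ) := by
    have : (Q : ℝ) * Real.pi * P - A * P = Q * (Real.pi * P - L) + (Q * L - A * P) := by ring
    have h4 : |(Q : ℝ) * Real.pi - A| * P = |(Q : ℝ) * Real.pi * P - A * P| := by
      rw [← sub_mul, abs_mul, abs_of_pos hPR]
    rw [h4, this]
    refine (abs_add_le _ _).trans ?_
    rw [habs, abs_mul, abs_of_pos hQR]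
    push_cast
    nlinarith [hL.le, abs_nonneg (Real.pi * P - L)]
  have he2 : 2 * (hi : ℝ) * |(Q : ℝ) * Real.pi - A| ≤ 1 := by
    have h3R : 2 * (hi : ℝ) * (((Q * L - A * P) + (A * P - Q * L) + 2 * Q : ℕ) : ℝ) ≤ P := by
      exact_mod_cast h3
    have h5 : 2 * (hi : ℝ) * |(Q : ℝ) * Real.pi - A| * P ≤ 1 * P := by
      calc 2 * (hi : ℝ) * |(Q : ℝ) * Real.pi - A| * P
          = 2 * (hi : ℝ) * (|(Q : ℝ) * Real.pi - A| * P) := by ring
        _ ≤ 2 * (hi : ℝ) * (((Q * L - A * P) + (A * P - Q * L) + 2 * Q : ℕ) : ℝ) :=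
            mul_le_mul_of_nonneg_left hea (by positivity)
        _ ≤ 1 * P := by rw [one_mul]; exact h3R
    exact le_of_mul_le_mul_right h5 hPR
  -- the two fractions are different
  have hne : p * Q - q * A ≠ 0 := by
    intro h
    have h6 : (Q : ℤ) ∣ q * A := ⟨p, by linarith⟩
    have h7 : IsCoprime (Q : ℤ) (A : ℤ) := by
      rw [Int.isCoprime_iff_gcd_eq_one]
      exact_mod_cast hg
    have h8 : (Q : ℤ) ∣ q := h7.dvd_of_dvd_mul_right h6
    have h9 : (Q : ℤ) ≤ q := Int.le_of_dvd hq0 h8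
    have h10 : (hi : ℤ) < Q := by exact_mod_cast h1
    linarith
  have hge : (1 : ℝ) ≤ |(p : ℝ) * Q - q * A| := by
    have := Int.one_le_abs hne
    have h11 : ((1 : ℤ) : ℝ) ≤ ((|p * Q - q * A| : ℤ) : ℝ) := by exact_mod_cast this
    push_cast at h11
    exact h11
  -- the distance
  have hqhi : (q : ℝ) ≤ hi := by exact_mod_cast hq2
  have hqe : 2 * ((q : ℝ) * |(Q : ℝ) * Real.pi - A|) ≤ 1 := by
    have : (q : ℝ) * |(Q : ℝ) * Real.pi - A| ≤ hi * |(Q : ℝ) * Real.pi - A| :=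
      mul_le_mul_of_nonneg_right hqhi (abs_nonneg _)
    linarith
  have hd : (1 : ℝ) / 2 ≤ |Real.pi - (p : ℝ) / q| * (Q * q) := by
    have h12 : |Real.pi - (p : ℝ) / q| * (Q * q) = |(Q : ℝ) * Real.pi * q - p * Q| := by
      rw [← abs_of_pos (mul_pos hQR hqR), ← abs_mul]
      congr 1
      field_simp
    rw [h12]
    have h13 : (p : ℝ) * Q - q * A = q * (Q * Real.pi - A) - (Q * Real.pi * q - p * Q) := by ring
    have h14 := abs_sub (q * ((Q : ℝ) * Real.pi - A)) (Q * Real.pi * q - p * Q)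
    rw [← h13, abs_mul, abs_of_pos hqR] at h14
    linarith
  have hQ6 : (2 : ℝ) * Q < (q : ℝ) ^ e := by
    have h15 : (2 : ℝ) * Q < (lo : ℝ) ^ e := by exact_mod_cast h2
    have h16 : (lo : ℝ) ≤ q := by exact_mod_cast hq1
    exact h15.trans_le (pow_le_pow_left₀ (by positivity) h16 e)
  rw [div_lt_iff₀ (by positivity)]
  have h17 : (q : ℝ) ^ (e + 1) = q ^ e * q := pow_succ _ _
  rw [h17]
  have hpos : 0 < |Real.pi - (p : ℝ) / q| := by
    by_contra hcon
    have h0 : |Real.pi - (p : ℝ) / q| = 0 := le_antisymm (not_lt.mp hcon) (abs_nonneg _)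
    rw [h0] at hd
    linarith
  have h18 : |Real.pi - (p : ℝ) / q| * (2 * Q * q) < |Real.pi - (p : ℝ) / q| * (q ^ e * q) := by
    apply mul_lt_mul_of_pos_left _ hpos
    exact mul_lt_mul_of_pos_right hQ6 hqR
  linarith

theorem chkTe_nil (e L P lo H : ℕ) : chkTe e L P [] lo H = Nat.ble (Nat.succ H) lo := rfl

theorem chkTe_cons (e L P : ℕ) (r : ℕ × ℕ) (T : List (ℕ × ℕ)) (lo H : ℕ) :
    chkTe e L P (r :: T) lo H =
      and (chk1e e L P lo r.1 r.2 (Nat.div (Nat.add (Nat.mul (Nat.mul 2 r.1) L) P) (Nat.mul 2 P)))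
        (chkTe e L P T (Nat.succ r.2) H) := rfl

theorem chk1e_sound {e L P lo Q hi A : ℕ} (h : chk1e e L P lo Q hi A = true) :
    Nat.gcd Q A = 1 ∧ hi < Q ∧ 2 * Q < lo ^ e ∧
      2 * hi * ((Q * L - A * P) + (A * P - Q * L) + 2 * Q) ≤ P := by
  unfold chk1e at h
  rw [Bool.and_eq_true, Bool.and_eq_true, Bool.and_eq_true] at h
  obtain ⟨a, b, c, d⟩ := h
  exact ⟨Nat.eq_of_beq_eq_true a, Nat.le_of_ble_eq_true b, Nat.le_of_ble_eq_true c,
    Nat.le_of_ble_eq_true d⟩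

theorem sounde {e L P : ℕ} (hP : 0 < P) (hL : |Real.pi * P - L| < 2) :
    ∀ (T : List (ℕ × ℕ)) (lo H : ℕ), 1 ≤ lo → chkTe e L P T lo H = true →
    ∀ p q : ℤ, (lo : ℤ) ≤ q → q ≤ H → 1 / (q : ℝ) ^ (e + 1) < |Real.pi - (p : ℝ) / (q : ℝ)| := by
  intro T
  induction T with
  | nil =>
    intro lo H _ hc p q h1 h2
    rw [chkTe_nil] at hc
    have h3 : H + 1 ≤ lo := Nat.le_of_ble_eq_true hc
    have h4 : (H : ℤ) + 1 ≤ lo := by exact_mod_cast h3
    linarith
  | cons r T ih =>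
    intro lo H hlo hc p q h1 h2
    rw [chkTe_cons, Bool.and_eq_true] at hc
    obtain ⟨c1, c2⟩ := hc
    obtain ⟨g, a, b, c⟩ := chk1e_sound c1
    rcases le_or_gt q (r.2 : ℤ) with h | h
    · exact stepe hP hL hlo g a b c h1 h
    · exact ih (Nat.succ r.2) H (Nat.succ_le_succ (Nat.zero_le _)) c2 p q (by push_cast; linarith) h2

end Vale.Agent.P021.Eff
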