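import Mathlib
import Vale.Agent.P021.Eff.B2Defs
import Vale.Agent.P021.Eff.B2Data
import Vale.Agent.P021.Eff.B2Lem
import Vale.Agent.P021.Eff.B2Chk

/-!
The range of small denominators, second version:
`|π - p/q| > q^(-6)` for `2 ≤ q ≤ 10^300000`.
-/

namespace Vale.Agent.P021.Eff

open Real

theorem Inv_tser5 : Inv 25 1 tn5 tser5 := by
  have a := Inv_node (m2 := 25) (by norm_num) 17 1 (by norm_num)
  have b := Inv_node (m2 := 25) (by norm_num) 16 (Nat.add 1 (Nat.pow 2 19)) (Nat.succ_pos _)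
  have c := Inv_node (m2 := 25) (by norm_num) 15 (Nat.add (Nat.add 1 (Nat.pow 2 19)) (Nat.pow 2 18))
    (by exact Nat.lt_of_lt_of_le (Nat.succ_pos _) (Nat.le_add_right _ _))
  have ab := Inv_merge (n1 := 2 ^ (17 + 1)) (n2 := 2 ^ (16 + 1)) (by norm_num) (by decide) (by
    decide) a b
  have abc := Inv_merge (by norm_num) (by decide) (by decide) ab c
  have e : 2 ^ (17 + 1) + 2 ^ (16 + 1) + 2 ^ (15 + 1) = tn5 := by decide
  rw [e] at abc
  exact abc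

theorem Inv_tser239 : Inv 57121 1 tn239 tser239 := by
  have a := Inv_node (m2 := 57121) (by norm_num) 16 1 (by norm_num)
  have e : 2 ^ (16 + 1) = tn239 := by decide
  rw [e] at a
  exact a

theorem tpow_pos_gen (a b : ℕ) (h : 0 < a) : 0 < Nat.pow a b := Nat.pow_pos h

theorem tscl_pos : 0 < tscl := by
  unfold tscl
  exact tpow_pos_gen _ _ (by norm_num)

attribute [local irreducible] tscl tser5 tser239 tn5 tn239 ttbl

theorem tble_gen {a b c d : ℕ}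
    (h : Nat.ble (Nat.mul a b) (Nat.pow c (Nat.succ (Nat.mul 2 d))) = true) :
    a * b ≤ c ^ (2 * d + 1) := Nat.le_of_ble_eq_true h

theorem tpiX_eq : tpiX = 80 * tser5.2 * tscl / (tser5.1 * 25 ^ tn5) := by
  unfold tpiX
  rw [piG_eq]

theorem tpiY_eq : tpiY = 956 * tser239.2 * tscl / (tser239.1 * 57121 ^ tn239) := by
  unfold tpiY
  rw [piG_eq]

theorem tsub_gen (a b : ℕ) : Nat.sub a b = a - b := rfl

theorem tpiL_eq : tpiL = tpiX - tpiY := by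
  unfold tpiL
  rw [tsub_gen]

attribute [local irreducible] tpiX tpiY tpiL

/-- the assembly with all big numbers as variables -/
theorem tassemble {P X Y L : ℕ} (hL : L = X - Y) (hle : Y ≤ X)
    (x : -(1 / 2 : ℝ) ≤ (16 : ℕ) * arctan (((5 : ℕ) : ℝ)⁻¹) * P - (X : ℝ) ∧
      (16 : ℕ) * arctan (((5 : ℕ) : ℝ)⁻¹) * P - (X : ℝ) < 3 / 2)
    (y : -(1 / 2 : ℝ) ≤ (4 : ℕ) * arctan (((239 : ℕ) : ℝ)⁻¹) * P - (Y : ℝ) ∧
      (4 : ℕ) * arctan (((239 : ℕ) : ℝ)⁻¹) * P - (Y : ℝ) < 3 / 2) :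
    |Real.pi * P - L| < 2 := by
  have hL' : (L : ℝ) = (X : ℝ) - Y := by rw [hL, Nat.cast_sub hle]
  have hm := four_mul_arctan_inv_5_sub_arctan_inv_239
  have hpi : Real.pi = 16 * arctan ((5 : ℝ)⁻¹) - 4 * arctan ((239 : ℝ)⁻¹) := by linarith
  obtain ⟨x1, x2⟩ := x
  obtain ⟨y1, y2⟩ := y
  push_cast at x1 x2 y1 y2
  rw [hL', hpi, abs_lt]
  constructor <;> linarith

theorem tboundX (d2 : 64 * tscl ≤ 5 ^ (2 * tn5 + 1)) :
    -(1 / 2 : ℝ) ≤ (16 : ℕ) * arctan (((5 : ℕ) : ℝ)⁻¹) * tscl - (tpiX : ℝ) ∧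
      (16 : ℕ) * arctan (((5 : ℕ) : ℝ)⁻¹) * tscl - (tpiX : ℝ) < 3 / 2 := by
  rw [tpiX_eq]
  refine quot_bound (m := 5) (m2 := 25) (n := tn5) (c := 16) (cm := 80) (P := tscl)
      (by norm_num) (by norm_num) (by norm_num) tser5 Inv_tser5 tscl_pos ?_
  rw [show 4 * 16 = 64 from rfl]
  exact d2

theorem tboundY (d3 : 16 * tscl ≤ 239 ^ (2 * tn239 + 1)) :
    -(1 / 2 : ℝ) ≤ (4 : ℕ) * arctan (((239 : ℕ) : ℝ)⁻¹) * tscl - (tpiY : ℝ) ∧
      (4 : ℕ) * arctan (((239 : ℕ) : ℝ)⁻¹) * tscl - (tpiY : ℝ) < 3 / 2 := by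
  rw [tpiY_eq]
  refine quot_bound (m := 239) (m2 := 57121) (n := tn239) (c := 4) (cm := 956) (P := tscl)
      (by norm_num) (by norm_num) (by norm_num) tser239 Inv_tser239 tscl_pos ?_
  rw [show 4 * 4 = 16 from rfl]
  exact d3

/-- the computed value of `π` -/
theorem tpiL_bound : |Real.pi * tscl - tpiL| < 2 := by
  have hc := tchkS_true
  unfold tchkS at hc
  rw [Bool.and_eq_true, Bool.and_eq_true] at hc
  obtain ⟨c1, c2, c3⟩ := hc
  exact tassemble tpiL_eq (Nat.le_of_ble_eq_true c1) (tboundX (tble_gen c2)) (tboundY (tble_gen c3))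

theorem tsmall_gen {e H : ℕ} (hc : chkTe e tpiL tscl ttbl 2 (Nat.pow 10 H) = true) (p q : ℤ)
    (h2 : 2 ≤ q) (hq : q ≤ 10 ^ H) :
    1 / (q : ℝ) ^ (e + 1) < |Real.pi - (p : ℝ) / (q : ℝ)| := by
  refine sounde tscl_pos tpiL_bound ttbl 2 (Nat.pow 10 H) (by norm_num) hc p q
    (by exact_mod_cast h2) ?_
  have e : (Nat.pow 10 H) = 10 ^ H := rfl
  rw [e, Nat.cast_pow]
  exact hq

/-- **Small denominators**, exponent 6. -/
theorem small2 (p q : ℤ) (h2 : 2 ≤ q) (hq : q ≤ 10 ^ 300000) :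
    1 / (q : ℝ) ^ 6 < |Real.pi - (p : ℝ) / (q : ℝ)| :=
  tsmall_gen tchk_true p q h2 hq

end Vale.Agent.P021.Eff
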