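import Vale.Agent.P021.MathlibUsed

/-!
# The two integer schemes for the explicit Chebyshev bounds

`mUp`, `mLo` are lists of pairs `(d, m)`: the coefficient of `T (x / d)` is `d * m`, and the `m` sum
to zero.  `bUp`, `bLo` are lists of pairs `(j, b)`: the coefficient of `psi (x / j)` is `b`.
Upper scheme: for all `k` positive, `sum d * m * (k / d) + sum over j not exceeding k of b` is at
least `999956`.  Lower scheme: it is at most `1000016`.
The last step `j = 30001` pays for all `k` from there on.
-/

namespace Vale.Agent.P021.Eff

def mUp : List (ℕ × ℤ) :=
  [(1, 999999), (2, -500000), (3, -333333), (5, -200000), (6, 166667), (7, -142857),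
   (10, 100000), (11, -90909), (13, -76923), (14, 71429), (15, 66667), (17, -47606),
   (19, -42336), (21, 34816), (22, 39278), (23, -23856), (26, 38462), (29, -28143),
   (30, -33333), (31, -12300), (33, 17026), (34, 15056), (35, 10551), (37, -12165),
   (38, 6697), (39, 21528), (41, -1891), (42, -17408), (43, -12821), (46, 9954),
   (47, -9978), (51, 559), (53, -7183), (55, 6050), (57, 986), (58, 12290),
   (59, -2480), (61, -3145), (62, 246), (66, -6454), (67, -2046), (69, -1433),
   (70, -6018), (71, -4114), (73, -4582), (74, 4520), (77, -328), (78, -10764),
   (79, -4514), (82, 945), (83, -3556), (85, 2074), (86, 2059), (87, 2320),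
   (91, 1536), (93, 3573), (94, 5533), (95, 1419), (97, 236)]

def bUp : List (ℕ × ℤ) :=
  [(17, -190692), (19, -195615), (21, 268858), (22, 135888), (23, -451319), (29, -183865),
   (31, -618710), (33, 438131), (34, 297410), (35, 630716), (39, 160414), (41, -922489),
   (43, -312794), (46, 90779), (47, -531044), (51, 780803), (55, 47965), (57, 748209),
   (58, 103316), (59, -853693), (61, -173289), (65, 1000000), (69, 82082), (70, 51956),
   (71, -707908), (77, 1025289), (79, -643362), (86, 302402), (87, 614309), (88, 135888),
   (95, 618362), (97, -584795), (101, -731094), (103, -719727), (107, -1000000), (109, -704340),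
   (116, 103316), (117, 160414), (118, 146307), (119, 809308), (122, 191820), (123, 77511),
   (124, 366033), (127, -448683), (136, 238902), (143, 2667), (145, 816135), (146, 334452),
   (147, 268858), (148, 115662), (150, 704710), (30001, 11314883)]

def nUp : ℤ := 999956

def mLo : List (ℕ × ℤ) :=
  [(1, 999996), (2, -500000), (3, -333333), (5, -200000), (6, 166667), (7, -142857),
   (10, 100000), (11, -90909), (13, -76923), (14, 71385), (15, 66667), (17, -46462),
   (19, -52632), (21, 47619), (22, 45455), (23, -43313), (26, 26116), (29, -17562),
   (30, -33333), (31, -18503), (33, 19181), (34, 14503), (35, -2115), (37, -13921),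
   (38, 18925), (39, 23245), (41, -8532), (42, -23795), (43, -9353), (46, 8290),
   (51, 7153), (53, -4791), (55, 733), (57, 5881), (58, 1600), (59, 1278),
   (61, -2925), (62, 5574), (65, 1387), (66, -6527), (67, -4363), (69, 3000),
   (70, 1779), (71, -136), (73, 1059), (74, 3464), (77, 872), (78, -8590),
   (79, -177), (82, 230), (85, 1552), (86, 305), (87, 2584), (89, -6878),
   (91, 2286), (93, -1132), (94, 238), (95, 1850), (97, -1812)]

def bLo : List (ℕ × ℤ) :=
  [(14, 610), (17, -210139), (23, -3806), (26, 320990), (29, -490084), (31, -426407),
   (33, 367041), (34, 296747), (35, 589090), (38, 280856), (41, -556765), (43, -597803),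
   (47, -385151), (55, 959696), (56, 610), (57, 5899), (61, -821558), (62, 228028),
   (68, 45668), (73, -1077304), (74, 258698), (76, 280856), (77, 31281), (83, -669066),
   (85, 657962), (86, 272683), (91, 791964), (92, 614849), (93, 656525), (101, -632349),
   (102, -68036), (103, -1000000), (107, -351054), (109, -1000000), (110, -40304), (113, -484323),
   (114, -54362), (115, 996194), (116, 416521), (117, 18022), (119, 789861), (127, -243722),
   (131, -366947), (132, -202159), (139, -3138), (140, -49891), (150, -1555709), (30001, -10891397)]

def nLo : ℤ := 1000016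

end Vale.Agent.P021.Eff
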