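import Vale.Agent.P021.Eff.Spec

/-!
# The final step: from the rows B, C, D to the explicit measure
-/

namespace Vale.Agent.P021.Eff

open Vale.Agent.P021.Det

theorem log10_lower : (2.3 : ℝ) < Real.log 10 := by
  have h1 : Real.log ((2 : ℝ) ^ 93) ≤ Real.log ((10 : ℝ) ^ 28) :=
    Real.log_le_log (by norm_num) (by norm_num)
  rw [Real.log_pow, Real.log_pow] at h1
  have h2 := Real.log_two_gt_d9
  push_cast at h1
  linarith

theorem goal_of_rows (hB : RowB) (hC : RowC) (hD : RowD) : Goal := by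
  intro p q hq2
  by_cases hsmall : q ≤ 10 ^ 115000
  · exact hB p q hq2 hsmall
  push Not at hsmall
  by_contra hcon
  push Not at hcon
  have hqZ : (0 : ℤ) < q := by omega
  have hq0 : (0 : ℝ) < q := by exact_mod_cast hqZ
  have hq1 : (1 : ℝ) ≤ q := by
    have : (1 : ℤ) ≤ q := by omega
    exact_mod_cast this
  set w : ℝ := 33109 * Real.log 2 with hw
  have hl2 := Real.log_two_gt_d9
  have hl2' := Real.log_two_lt_d9
  have hw0 : 0 < w := by rw [hw]; linarith
  have hwlt : w / 7 ≤ 3278.6 := by rw [hw]; linarith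
  have hl10 := log10_lower
  have hlog : (115000 : ℝ) * Real.log 10 ≤ Real.log q := by
    have h1 : ((10 : ℝ)) ^ 115000 ≤ q := by exact_mod_cast hsmall.le
    have h2 := Real.log_le_log (by positivity) h1
    rw [Real.log_pow] at h2
    exact_mod_cast h2
  have hlogpos : 0 < Real.log q := by linarith
  set n : ℕ := ⌊7 * Real.log q / w⌋₊ with hn
  have hn1 : (n : ℝ) ≤ 7 * Real.log q / w := Nat.floor_le (by positivity)
  have hn2 : 7 * Real.log q / w < n + 1 := Nat.lt_floor_add_one _
  have hn80 : 80 ≤ n := by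
    apply Nat.le_floor
    rw [le_div_iff₀ hw0, hw]
    push_cast
    linarith
  obtain ⟨κ, hκ, hne⟩ := exists_det_ne_zero ((p : ℝ) / q) (1200 * n) (2600 * n) (5200 * n)
    (1000 * n)
  have hclose : |(p : ℝ) / q - Real.pi| ≤ Real.exp (-w * n) := by
    rw [abs_sub_comm]
    refine hcon.trans ?_
    rw [one_div, ← Real.exp_log (pow_pos hq0 7), ← Real.exp_neg, Real.log_pow]
    apply Real.exp_le_exp.2
    rw [le_div_iff₀ hw0] at hn1
    push_cast
    linarith
  have hlow := hC n κ hn80 hκ p q hqZ hne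
  have hup := hD n κ hn80 hκ _ (by rw [hw] at hclose; exact hclose)
  have h5 : Real.exp (-(5360000 * (n : ℝ) ^ 2)) ≤
      Real.exp ((1000 * (n : ℝ) + 2) * Real.log q) * Real.exp (-(8705000 * (n : ℝ) ^ 2)) := by
    refine hlow.trans (mul_le_mul ?_ hup (abs_nonneg _) (Real.exp_pos _).le)
    calc (q : ℝ) ^ (1000 * n + κ) ≤ (q : ℝ) ^ (1000 * n + 2) := pow_le_pow_right₀ hq1 (by omega)
      _ = Real.exp ((1000 * (n : ℝ) + 2) * Real.log q) := by
        rw [← Real.exp_log (pow_pos hq0 (1000 * n + 2)), Real.log_pow]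
        push_cast
        rfl
  rw [← Real.exp_add, Real.exp_le_exp] at h5
  have h6 : Real.log q ≤ w / 7 * (n + 1) := by
    rw [div_lt_iff₀ hw0] at hn2
    linarith
  have hnR : (80 : ℝ) ≤ n := by exact_mod_cast hn80
  have h7 : Real.log q ≤ 3278.6 * (n + 1) :=
    h6.trans (mul_le_mul_of_nonneg_right hwlt (by linarith))
  have h8 : (1000 * (n : ℝ) + 2) * Real.log q ≤ (1000 * (n : ℝ) + 2) * (3278.6 * (n + 1)) :=
    mul_le_mul_of_nonneg_left h7 (by linarith)
  nlinarith

end Vale.Agent.P021.Eff
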