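import Vale.Agent.P021.Bdl.B3

/-!
# The rows of the explicit measure (Props only)
-/

namespace Vale.Agent.P021.Eff

open Vale.Agent.P021.Det

/-- row A -/
def RowA : Prop :=
  (∀ x : ℝ, 2000 ≤ x → 0.9695 * x ≤ Chebyshev.psi x ∧ Chebyshev.psi x ≤ 1.03 * x) ∧
    ∀ x : ℝ, 0 ≤ x → Chebyshev.psi x ≤ 1.04 * x

/-- row A, base range -/
def RowA1 : Prop :=
  (∀ x : ℝ, 2000 ≤ x → x ≤ 300000 → 0.9695 * x ≤ Chebyshev.psi x ∧ Chebyshev.psi x ≤ 1.03 * x) ∧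
    ∀ x : ℝ, 0 ≤ x → x ≤ 300000 → Chebyshev.psi x ≤ 1.04 * x

/-- row B -/
def RowB : Prop :=
  ∀ p q : ℤ, 2 ≤ q → q ≤ 10 ^ 115000 → 1 / (q : ℝ) ^ 7 < |Real.pi - (p : ℝ) / (q : ℝ)|

/-- row C -/
def RowC : Prop :=
  ∀ n κ : ℕ, 80 ≤ n → κ ≤ 2 → ∀ p q : ℤ, 0 < q →
    (HM ((p : ℝ) / q) (1200 * n) (2600 * n) (5200 * n) (1000 * n + κ)).det ≠ 0 →
    Real.exp (-(5360000 * (n : ℝ) ^ 2)) ≤ (q : ℝ) ^ (1000 * n + κ) *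
      |(HM ((p : ℝ) / q) (1200 * n) (2600 * n) (5200 * n) (1000 * n + κ)).det|

/-- row D -/
def RowD : Prop :=
  ∀ n κ : ℕ, 80 ≤ n → κ ≤ 2 → ∀ x : ℝ, |x - Real.pi| ≤ Real.exp (-(33109 * Real.log 2) * n) →
    |(HM x (1200 * n) (2600 * n) (5200 * n) (1000 * n + κ)).det| ≤
      Real.exp (-(8705000 * (n : ℝ) ^ 2))

/-- the final statement -/
def Goal : Prop :=
  ∀ p q : ℤ, 2 ≤ q → 1 / (q : ℝ) ^ 7 < |Real.pi - (p : ℝ) / (q : ℝ)|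

end Vale.Agent.P021.Eff
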