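import Vale.Agent.P021.Eff.Final
import Vale.Agent.P021.H749.ArithLU
import Vale.Agent.P021.H476.ArchE

/-!
# The final step, version 2: exponent `13 / 2`
-/

namespace Vale.Agent.P021.Eff

open Vale.Agent.P021.Det

/-- the measure with exponent `13 / 2` from the small denominators and the prime number bounds -/
theorem goal2_of {N0 : ℤ} (hN0 : 10 ^ 250000 ≤ N0)
    (hB : ∀ p q : ℤ, 2 ≤ q → q ≤ N0 → 1 / (q : ℝ) ^ 6 < |Real.pi - (p : ℝ) / (q : ℝ)|)
    (hbd : ∀ x : ℝ, 2000 ≤ x → 0.984 * x ≤ Chebyshev.psi x ∧ Chebyshev.psi x ≤ 1.0162 * x)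
    (hle : ∀ x : ℝ, 0 ≤ x → Chebyshev.psi x ≤ 1.04 * x) (p q : ℤ) (hq2 : 2 ≤ q) :
    1 / (q : ℝ) ^ (13 / 2 : ℝ) < |Real.pi - (p : ℝ) / (q : ℝ)| := by
  have hqZ : (0 : ℤ) < q := by omega
  have hq0 : (0 : ℝ) < q := by exact_mod_cast hqZ
  have hq1 : (1 : ℝ) ≤ q := by
    have : (1 : ℤ) ≤ q := by omega
    exact_mod_cast this
  by_cases hsmall : q ≤ N0
  · refine lt_of_le_of_lt ?_ (hB p q hq2 hsmall)
    apply one_div_le_one_div_of_le (pow_pos hq0 6)
    rw [← Real.rpow_natCast]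
    exact Real.rpow_le_rpow_of_exponent_le hq1 (by norm_num)
  push Not at hsmall
  by_contra hcon
  push Not at hcon
  set w : ℝ := 33109 * Real.log 2 with hw
  have hl2 := Real.log_two_gt_d9
  have hl2' := Real.log_two_lt_d9
  have hw0 : 0 < w := by rw [hw]; linarith
  have hwlt : w / (13 / 2) ≤ 3530.8 := by rw [hw]; linarith
  have hl10 := log10_lower
  have hlog : (250000 : ℝ) * Real.log 10 ≤ Real.log q := by
    have h1 : ((10 : ℝ)) ^ 250000 ≤ q := by exact_mod_cast (hN0.trans hsmall.le)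
    have h2 := Real.log_le_log (by positivity) h1
    rw [Real.log_pow] at h2
    exact_mod_cast h2
  have hlogpos : 0 < Real.log q := by linarith
  set n : ℕ := ⌊13 / 2 * Real.log q / w⌋₊ with hn
  have hn1 : (n : ℝ) ≤ 13 / 2 * Real.log q / w := Nat.floor_le (by positivity)
  have hn2 : 13 / 2 * Real.log q / w < n + 1 := Nat.lt_floor_add_one _
  have hn160 : 160 ≤ n := by
    apply Nat.le_floor
    rw [le_div_iff₀ hw0, hw]
    push_cast
    linarith
  obtain ⟨κ, hκ, hne⟩ := exists_det_ne_zero ((p : ℝ) / q) (1200 * n) (2600 * n) (5200 * n)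
    (1000 * n)
  have hclose : |(p : ℝ) / q - Real.pi| ≤ Real.exp (-w * n) := by
    rw [abs_sub_comm]
    refine hcon.trans ?_
    rw [one_div, ← Real.rpow_neg hq0.le, Real.rpow_def_of_pos hq0]
    apply Real.exp_le_exp.2
    rw [le_div_iff₀ hw0] at hn1
    linarith
  have hlow := arithLU160 hbd hle n κ hn160 hκ p q hqZ hne
  have hup := H476.arch_lin n κ (by omega) hκ _ (by rw [hw] at hclose; exact hclose)
  have h5 := hlow.trans (mul_le_mul_of_nonneg_left hup (pow_pos hq0 (1000 * n + κ)).le)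
  have h50 : (q : ℝ) ^ (1000 * n + κ) ≤ Real.exp ((1000 * (n : ℝ) + 2) * Real.log q) := by
    calc (q : ℝ) ^ (1000 * n + κ) ≤ (q : ℝ) ^ (1000 * n + 2) := pow_le_pow_right₀ hq1 (by omega)
      _ = Real.exp ((1000 * (n : ℝ) + 2) * Real.log q) := by
        rw [← Real.exp_log (pow_pos hq0 (1000 * n + 2)), Real.log_pow]
        push_cast
        rfl
  have h51 := h5.trans (mul_le_mul_of_nonneg_right h50 (Real.exp_pos _).le)
  rw [← Real.exp_add, Real.exp_le_exp] at h51
  have h6 : Real.log q ≤ w / (13 / 2) * (n + 1) := by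
    rw [div_lt_iff₀ hw0] at hn2
    linarith
  have hnR : (160 : ℝ) ≤ n := by exact_mod_cast hn160
  have h7 : Real.log q ≤ 3530.8 * (n + 1) :=
    h6.trans (mul_le_mul_of_nonneg_right hwlt (by linarith))
  have h8 : (1000 * (n : ℝ) + 2) * Real.log q ≤ (1000 * (n : ℝ) + 2) * (3530.8 * (n + 1)) :=
    mul_le_mul_of_nonneg_left h7 (by linarith)
  nlinarith

end Vale.Agent.P021.Eff
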