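import Mathlib
import Vale.Agent.P021.Eff.SmallDefs
import Vale.Agent.P021.Eff.SmallData

/-!
The kernel computation: `π` to 230000 digits and the check of the table.
-/

namespace Vale.Agent.P021.Eff

theorem chkS_true : chkS = true := by decide +kernel

theorem chkT_true : chkT piL scl tbl 2 (Nat.pow 10 115000) = true := by decide +kernel

end Vale.Agent.P021.Eff
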