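import Mathlib
import Vale.Agent.P021.Eff.SmallDefs
import Vale.Agent.P021.Eff.SmallData
import Vale.Agent.P021.Eff.SmallLem
import Vale.Agent.P021.Eff.SmallChk

/-!
The range of small denominators: `|π - p/q| > q^(-7)` for `2 ≤ q ≤ 10^115000`.
-/

namespace Vale.Agent.P021.Eff

open Real

theorem Inv_ser5 : Inv 25 1 n5 ser5 := by
  have a := Inv_node (m2 := 25) (by norm_num) 16 1 (by norm_num)
  have b := Inv_node (m2 := 25) (by norm_num) 14 (Nat.add 1 (Nat.pow 2 18)) (Nat.succ_pos _)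
  have c := Inv_node (m2 := 25) (by norm_num) 9 (Nat.add (Nat.add 1 (Nat.pow 2 18)) (Nat.pow 2 16))
    (by exact Nat.lt_of_lt_of_le (Nat.succ_pos _) (Nat.le_add_right _ _))
  have ab := Inv_merge (n1 := 2 ^ (16 + 1)) (n2 := 2 ^ (14 + 1)) (by norm_num) (by decide) (by
    decide) a b
  have abc := Inv_merge (by norm_num) (by decide) (by decide) ab c
  have e : 2 ^ (16 + 1) + 2 ^ (14 + 1) + 2 ^ (9 + 1) = n5 := by decide
  rw [e] at abc
  exact abc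

theorem Inv_ser239 : Inv 57121 1 n239 ser239 := by
  have a := Inv_node (m2 := 57121) (by norm_num) 14 1 (by norm_num)
  have b := Inv_node (m2 := 57121) (by norm_num) 13 (Nat.add 1 (Nat.pow 2 16)) (Nat.succ_pos _)
  have ab := Inv_merge (n1 := 2 ^ (14 + 1)) (n2 := 2 ^ (13 + 1)) (by norm_num) (by decide) (by
    decide) a b
  have e : 2 ^ (14 + 1) + 2 ^ (13 + 1) = n239 := by decide
  rw [e] at ab
  exact ab

theorem pow_pos_gen (a b : ℕ) (h : 0 < a) : 0 < Nat.pow a b := Nat.pow_pos h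

theorem scl_pos : 0 < scl := by
  unfold scl
  exact pow_pos_gen _ _ (by norm_num)

attribute [local irreducible] scl ser5 ser239 n5 n239 tbl

theorem ble_gen {a b c d : ℕ}
    (h : Nat.ble (Nat.mul a b) (Nat.pow c (Nat.succ (Nat.mul 2 d))) = true) :
    a * b ≤ c ^ (2 * d + 1) := Nat.le_of_ble_eq_true h

theorem piX_eq : piX = 80 * ser5.2 * scl / (ser5.1 * 25 ^ n5) := by
  unfold piX
  rw [piG_eq]

theorem piY_eq : piY = 956 * ser239.2 * scl / (ser239.1 * 57121 ^ n239) := by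
  unfold piY
  rw [piG_eq]

theorem sub_gen (a b : ℕ) : Nat.sub a b = a - b := rfl

theorem piL_eq : piL = piX - piY := by
  unfold piL
  rw [sub_gen]

attribute [local irreducible] piX piY piL

/-- the assembly with all big numbers as variables -/
theorem assemble {P X Y L : ℕ} (hL : L = X - Y) (hle : Y ≤ X)
    (x : -(1 / 2 : ℝ) ≤ (16 : ℕ) * arctan (((5 : ℕ) : ℝ)⁻¹) * P - (X : ℝ) ∧
      (16 : ℕ) * arctan (((5 : ℕ) : ℝ)⁻¹) * P - (X : ℝ) < 3 / 2)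
    (y : -(1 / 2 : ℝ) ≤ (4 : ℕ) * arctan (((239 : ℕ) : ℝ)⁻¹) * P - (Y : ℝ) ∧
      (4 : ℕ) * arctan (((239 : ℕ) : ℝ)⁻¹) * P - (Y : ℝ) < 3 / 2) :
    |Real.pi * P - L| < 2 := by
  have hL' : (L : ℝ) = (X : ℝ) - Y := by rw [hL, Nat.cast_sub hle]
  have hm := four_mul_arctan_inv_5_sub_arctan_inv_239
  have hpi : Real.pi = 16 * arctan ((5 : ℝ)⁻¹) - 4 * arctan ((239 : ℝ)⁻¹) := by linarith
  obtain ⟨x1, x2⟩ := x
  obtain ⟨y1, y2⟩ := y
  push_cast at x1 x2 y1 y2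
  rw [hL', hpi, abs_lt]
  constructor <;> linarith

theorem boundX (d2 : 64 * scl ≤ 5 ^ (2 * n5 + 1)) :
    -(1 / 2 : ℝ) ≤ (16 : ℕ) * arctan (((5 : ℕ) : ℝ)⁻¹) * scl - (piX : ℝ) ∧
      (16 : ℕ) * arctan (((5 : ℕ) : ℝ)⁻¹) * scl - (piX : ℝ) < 3 / 2 := by
  rw [piX_eq]
  refine quot_bound (m := 5) (m2 := 25) (n := n5) (c := 16) (cm := 80) (P := scl)
      (by norm_num) (by norm_num) (by norm_num) ser5 Inv_ser5 scl_pos ?_
  rw [show 4 * 16 = 64 from rfl]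
  exact d2

theorem boundY (d3 : 16 * scl ≤ 239 ^ (2 * n239 + 1)) :
    -(1 / 2 : ℝ) ≤ (4 : ℕ) * arctan (((239 : ℕ) : ℝ)⁻¹) * scl - (piY : ℝ) ∧
      (4 : ℕ) * arctan (((239 : ℕ) : ℝ)⁻¹) * scl - (piY : ℝ) < 3 / 2 := by
  rw [piY_eq]
  refine quot_bound (m := 239) (m2 := 57121) (n := n239) (c := 4) (cm := 956) (P := scl)
      (by norm_num) (by norm_num) (by norm_num) ser239 Inv_ser239 scl_pos ?_
  rw [show 4 * 4 = 16 from rfl]
  exact d3

/-- the computed value of `π` -/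
theorem piL_bound : |Real.pi * scl - piL| < 2 := by
  have hc := chkS_true
  unfold chkS at hc
  rw [Bool.and_eq_true, Bool.and_eq_true] at hc
  obtain ⟨c1, c2, c3⟩ := hc
  exact assemble piL_eq (Nat.le_of_ble_eq_true c1) (boundX (ble_gen c2)) (boundY (ble_gen c3))

theorem small_gen {H : ℕ} (hc : chkT piL scl tbl 2 (Nat.pow 10 H) = true) (p q : ℤ)
    (h2 : 2 ≤ q) (hq : q ≤ 10 ^ H) :
    1 / (q : ℝ) ^ 7 < |Real.pi - (p : ℝ) / (q : ℝ)| := by
  refine sound scl_pos piL_bound tbl 2 (Nat.pow 10 H) (by norm_num) hc p q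
    (by exact_mod_cast h2) ?_
  have e : (Nat.pow 10 H) = 10 ^ H := rfl
  rw [e, Nat.cast_pow]
  exact hq

/-- **Small denominators.** -/
theorem small (p q : ℤ) (h2 : 2 ≤ q) (hq : q ≤ 10 ^ 115000) :
    1 / (q : ℝ) ^ 7 < |Real.pi - (p : ℝ) / (q : ℝ)| :=
  small_gen chkT_true p q h2 hq

end Vale.Agent.P021.Eff
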